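import Vale.Agent.P230.Main

open Filter Vale.Agent.P230

theorem Vale.Agent.Results.P230.OrderT.result :
    (∃ c C : ℝ, 0 < c ∧ ∀ᶠ n : ℕ in atTop,
      ENNReal.ofReal (c * (n * Real.log n)) ≤ ThetaT n ∧
      ThetaT n ≤ ENNReal.ofReal (C * (n * Real.log n)) ∧
      ENNReal.ofReal (c * (n * Real.log n)) ≤ ThetaL n) ∧
    ¬ ∃ C : ℝ, ∀ n : ℕ, 1 ≤ n → ∀ K : Set (EuclideanSpace ℝ (Fin n)),
      IsConvexBody K → thetaT K ≤ ENNReal.ofReal (C * n) :=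
  ⟨⟨1 / 67174400, 36, by norm_num, order_main⟩, not_linear⟩
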